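import Vale.Agent.P038.helper16.Sylv

/-! The product argument. -/

namespace Vale.Agent.P038.H16

open Finset

variable {α : Type*} [Fintype α] [DecidableEq α]

def IsMin (B : α → Finset α) (σ K Z : Finset α) : Prop :=
  σ ⊆ Z ∧ Z ⊆ K ∧ ∀ Z', σ ⊆ Z' → Z' ⊆ K →
    (Z.biUnion B).card + Z'.card ≤ (Z'.biUnion B).card + Z.card

omit [Fintype α] in
lemma exists_isMin (B : α → Finset α) (σ K : Finset α) (h : σ ⊆ K) : ∃ Z, IsMin B σ K Z := by
  obtain ⟨Z, hZ, hmin⟩ := Finset.exists_min_image (K.powerset.filter (fun Z => σ ⊆ Z))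
    (fun Z => ((Z.biUnion B).card : ℤ) - Z.card) ⟨σ, by simp [h]⟩
  simp only [mem_filter, mem_powerset] at hZ hmin
  refine ⟨Z, hZ.2, hZ.1, fun Z' h1 h2 => ?_⟩
  have := hmin Z' ⟨h2, h1⟩
  omega

omit [Fintype α] in
lemma IsMin.up {B : α → Finset α} {σ K Z : Finset α} (h : IsMin B σ K Z) (T : Finset α)
    (hT : T ⊆ K) (hd : Disjoint Z T) : T.card ≤ (T.biUnion B \ Z.biUnion B).card := by
  have h1 := h.2.2 (Z ∪ T) (h.1.trans subset_union_left) (union_subset h.2.1 hT)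
  rw [card_union_of_disjoint hd, union_biUnion] at h1
  have h2 : (Z.biUnion B ∪ T.biUnion B).card
      = (T.biUnion B \ Z.biUnion B).card + (Z.biUnion B).card := by
    rw [card_sdiff_add_card, union_comm]
  omega

omit [Fintype α] in
lemma IsMin.down {B : α → Finset α} {σ K Z : Finset α} (h : IsMin B σ K Z) (Y : Finset α)
    (hY : Y ⊆ Z.biUnion B) (hd : ∀ y ∈ Y, y ∉ σ.biUnion B) :
    Y.card ≤ (Z.filter (fun x => ∃ y ∈ Y, y ∈ B x)).card := by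
  have h1 := h.2.2 (Z.filter (fun x => ¬ ∃ y ∈ Y, y ∈ B x)) (by
    intro x hx
    refine mem_filter.2 ⟨h.1 hx, ?_⟩
    rintro ⟨y, hy, hy'⟩
    exact hd y hy (mem_biUnion.2 ⟨x, hx, hy'⟩)) ((filter_subset _ _).trans h.2.1)
  have h2 := card_filter_add_card_filter_not (s := Z) (fun x => ∃ y ∈ Y, y ∈ B x)
  have h3 : (Z.filter (fun x => ¬ ∃ y ∈ Y, y ∈ B x)).biUnion B ⊆ Z.biUnion B \ Y := by
    intro y hy
    obtain ⟨x, hx, hy'⟩ := mem_biUnion.1 hy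
    obtain ⟨hx1, hx2⟩ := mem_filter.1 hx
    exact mem_sdiff.2 ⟨mem_biUnion.2 ⟨x, hx1, hy'⟩, fun hyY => hx2 ⟨y, hyY, hy'⟩⟩
  have h4 := card_le_card h3
  have h5 := card_sdiff_add_card_eq_card hY
  omega

omit [Fintype α] in
lemma union_contr (B Z : α → Finset α) (Y J : Finset α)
    (h : ∀ b ∈ J, ∀ Y' ⊆ Y, Y' ⊆ (Z b).biUnion B →
      Y'.card ≤ ((Z b).filter (fun x => ∃ y ∈ Y', y ∈ B x)).card) :
    (Y.filter (fun y => ∃ b ∈ J, y ∈ (Z b).biUnion B)).card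
      ≤ ((J.biUnion Z).filter (fun x => ∃ y ∈ Y, y ∈ B x)).card := by
  induction J using Finset.induction_on with
  | empty => simp
  | insert b J hb ih =>
    have ih' := ih (fun b' hb' => h b' (mem_insert_of_mem hb'))
    set Yn := Y.filter (fun y => y ∈ (Z b).biUnion B ∧ ¬ ∃ b' ∈ J, y ∈ (Z b').biUnion B) with hYn
    have h1 := h b (mem_insert_self _ _) Yn (filter_subset _ _)
      (fun y hy => (mem_filter.1 hy).2.1)
    have h2 : Y.filter (fun y => ∃ b' ∈ insert b J, y ∈ (Z b').biUnion B) ⊆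
        Y.filter (fun y => ∃ b ∈ J, y ∈ (Z b).biUnion B) ∪ Yn := by
      intro y hy
      obtain ⟨hy1, b', hb', hy2⟩ := mem_filter.1 hy
      by_cases h3 : ∃ b ∈ J, y ∈ (Z b).biUnion B
      · exact mem_union_left _ (mem_filter.2 ⟨hy1, h3⟩)
      · refine mem_union_right _ (mem_filter.2 ⟨hy1, ?_, h3⟩)
        rcases mem_insert.1 hb' with rfl | hb'
        · exact hy2
        · exact absurd ⟨b', hb', hy2⟩ h3
    have h3 : Disjoint ((J.biUnion Z).filter (fun x => ∃ y ∈ Y, y ∈ B x))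
        ((Z b).filter (fun x => ∃ y ∈ Yn, y ∈ B x)) := by
      rw [disjoint_left]
      intro x hx hx'
      obtain ⟨b', hb', hx1⟩ := mem_biUnion.1 (mem_filter.1 hx).1
      obtain ⟨y, hy, hy'⟩ := (mem_filter.1 hx').2
      exact (mem_filter.1 hy).2.2 ⟨b', hb', mem_biUnion.2 ⟨x, hx1, hy'⟩⟩
    have h4 : (J.biUnion Z).filter (fun x => ∃ y ∈ Y, y ∈ B x) ∪
        (Z b).filter (fun x => ∃ y ∈ Yn, y ∈ B x) ⊆
        ((insert b J).biUnion Z).filter (fun x => ∃ y ∈ Y, y ∈ B x) := by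
      intro x hx
      rcases mem_union.1 hx with hx | hx
      · obtain ⟨hx1, hx2⟩ := mem_filter.1 hx
        obtain ⟨b', hb', hx1⟩ := mem_biUnion.1 hx1
        exact mem_filter.2 ⟨mem_biUnion.2 ⟨b', mem_insert_of_mem hb', hx1⟩, hx2⟩
      · obtain ⟨hx1, y, hy, hy'⟩ := mem_filter.1 hx
        exact mem_filter.2 ⟨mem_biUnion.2 ⟨b, mem_insert_self _ _, hx1⟩,
          y, (mem_filter.1 hy).1, hy'⟩
    have h5 := card_le_card h4
    rw [card_union_of_disjoint h3] at h5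
    have h6 := (card_le_card h2).trans (card_union_le _ _)
    omega

def pr (R : α → Finset α) : Finset (α × α) := univ.filter (fun p => p.2 ∈ R p.1)

def prT (R : α → Finset α) : Finset (α × α) := univ.filter (fun p => p.1 ∈ R p.2)

@[simp] lemma mem_pr (R : α → Finset α) (p : α × α) : p ∈ pr R ↔ p.2 ∈ R p.1 := by simp [pr]

@[simp] lemma mem_prT (R : α → Finset α) (p : α × α) : p ∈ prT R ↔ p.1 ∈ R p.2 := by simp [prT]

lemma card_pr (R : α → Finset α) : (pr R).card = ∑ a, (R a).card := by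
  rw [pr, card_filter, Fintype.sum_prod_type]
  refine sum_congr rfl fun a _ => ?_
  simp

lemma card_prT (R : α → Finset α) : (prT R).card = ∑ a, (R a).card := by
  rw [prT, card_filter, Fintype.sum_prod_type_right]
  refine sum_congr rfl fun a _ => ?_
  simp

def Valid (B S₁ S₂ : α → Finset α) : Prop :=
  ∀ b y, y ∈ (S₁ b).biUnion B → b ∉ (S₂ y).biUnion B

omit [Fintype α] in
lemma Valid.symm {B S₁ S₂ : α → Finset α} (h : Valid B S₁ S₂) : Valid B S₂ S₁ :=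
  fun b y h1 h2 => h y b h2 h1

def OO (B K₁ K₂ : α → Finset α) : Finset (α × α) :=
  univ.filter (fun p => (∃ b ∈ B p.1, p.2 ∈ K₁ b) ∧ ∃ y ∈ B p.2, p.1 ∈ K₂ y)

lemma mem_OO (B K₁ K₂ : α → Finset α) (p : α × α) :
    p ∈ OO B K₁ K₂ ↔ (∃ b ∈ B p.1, p.2 ∈ K₁ b) ∧ ∃ y ∈ B p.2, p.1 ∈ K₂ y := by simp [OO]

lemma card_OO_swap (B K₁ K₂ : α → Finset α) : (OO B K₁ K₂).card = (OO B K₂ K₁).card := by
  refine card_bij (fun p _ => p.swap) ?_ ?_ ?_
  · intro p hp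
    rw [mem_OO] at hp ⊢
    exact ⟨hp.2, hp.1⟩
  · intro p _ q _ h
    exact Prod.swap_injective h
  · intro p hp
    refine ⟨p.swap, ?_, by simp⟩
    rw [mem_OO] at hp ⊢
    exact ⟨hp.2, hp.1⟩

lemma count1 (B σ K' Z K : α → Finset α) (hZ : ∀ b, IsMin B (σ b) (K' b) (Z b))
    (hv : Valid B σ K) :
    ∑ y, ((K y).filter (fun a => ∃ b ∈ B a, y ∈ (Z b).biUnion B)).card ≤ (OO B Z K).card := by
  have h1 : ∑ y, ((K y).filter (fun a => ∃ b ∈ B a, y ∈ (Z b).biUnion B)).card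
      = ∑ a, ((univ.filter (fun y => a ∈ K y)).filter
        (fun y => ∃ b ∈ B a, y ∈ (Z b).biUnion B)).card := by
    rw [← card_prT, ← card_pr]
    congr 1
    ext p
    simp only [mem_pr, mem_prT, mem_filter, mem_univ, true_and]
  have h2 : (OO B Z K).card = ∑ a, (((B a).biUnion Z).filter
      (fun x => ∃ y ∈ univ.filter (fun y => a ∈ K y), y ∈ B x)).card := by
    rw [← card_pr]
    congr 1
    ext p
    simp only [mem_pr, mem_OO, mem_filter, mem_univ, true_and, mem_biUnion]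
    constructor
    · rintro ⟨h, y, h1, h2⟩
      exact ⟨h, y, h2, h1⟩
    · rintro ⟨h, y, h1, h2⟩
      exact ⟨h, y, h2, h1⟩
  rw [h1, h2]
  refine sum_le_sum fun a _ => ?_
  have h3 := union_contr B Z (univ.filter (fun y => a ∈ K y)) (B a) (by
    intro b hb Y' hY' hY''
    refine (hZ b).down Y' hY'' fun y hy hy' => ?_
    exact hv b y hy' (mem_biUnion.2 ⟨a, (mem_filter.1 (hY' hy)).2, hb⟩))
  convert h3
  rfl

lemma lemQ (B σ₁ σ₂ K₁ K₂ : α → Finset α) (h1 : ∀ b, σ₁ b ⊆ K₁ b) (h2 : ∀ y, σ₂ y ⊆ K₂ y)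
    (ha : Valid B σ₁ K₂) (hb : Valid B K₁ σ₂) :
    ∃ Z₁ Z₂ : α → Finset α, (∀ b, σ₁ b ⊆ Z₁ b) ∧ (∀ y, σ₂ y ⊆ Z₂ y) ∧ Valid B Z₁ Z₂ ∧
      ∑ b, ((Z₁ b).biUnion B).card + ∑ y, ((Z₂ y).biUnion B).card
        + ∑ b, (K₁ b).card + ∑ y, (K₂ y).card
      ≤ ∑ b, (Z₁ b).card + ∑ y, (Z₂ y).card + Fintype.card α * Fintype.card α
        + (OO B K₁ K₂).card := by
  choose Z₁ hZ₁ using fun b => exists_isMin B (σ₁ b) (K₁ b) (h1 b)
  let L₂ : α → Finset α := fun y => (K₂ y).filter (fun a => ¬ ∃ b ∈ B a, y ∈ (Z₁ b).biUnion B)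
  have hσL : ∀ y, σ₂ y ⊆ L₂ y := by
    intro y a ha'
    refine mem_filter.2 ⟨h2 y ha', ?_⟩
    rintro ⟨b, hb1, hb2⟩
    exact hb b y (biUnion_subset_biUnion_of_subset_left _ (hZ₁ b).2.1 hb2)
      (mem_biUnion.2 ⟨a, ha', hb1⟩)
  choose Z₂ hZ₂ using fun y => exists_isMin B (σ₂ y) (L₂ y) (hσL y)
  have hval : Valid B Z₁ Z₂ := by
    intro b y hy hb'
    obtain ⟨a, ha1, ha2⟩ := mem_biUnion.1 hb'
    exact (mem_filter.1 ((hZ₂ y).2.1 ha1)).2 ⟨b, ha2, hy⟩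
  let L₁ : α → Finset α := fun b => (K₁ b).filter (fun x => ¬ ∃ y ∈ B x, b ∈ (Z₂ y).biUnion B)
  have hZL : ∀ b, Z₁ b ⊆ L₁ b := by
    intro b x hx
    refine mem_filter.2 ⟨(hZ₁ b).2.1 hx, ?_⟩
    rintro ⟨y, hy1, hy2⟩
    exact hval b y (mem_biUnion.2 ⟨x, hx, hy1⟩) hy2
  refine ⟨Z₁, Z₂, fun b => (hZ₁ b).1, fun y => (hZ₂ y).1, hval, ?_⟩
  have c1 := count1 B σ₁ K₁ Z₁ K₂ hZ₁ ha
  have c2 := count1 B σ₂ L₂ Z₂ K₁ hZ₂ hb.symm
  rw [card_OO_swap] at c2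
  let M : Finset (α × α) := univ.filter
    (fun p => p.2 ∉ (Z₁ p.1).biUnion B ∧ p.1 ∉ (Z₂ p.2).biUnion B)
  have c3 := sylv B (pr (fun b => L₁ b \ Z₁ b)) (pr (fun y => L₂ y \ Z₂ y)) M
    (OO B (fun b => L₁ b \ Z₁ b) (fun y => L₂ y \ Z₂ y)) (by
      intro b T hT
      simp only [mem_pr, mem_sdiff] at hT
      refine ((hZ₁ b).up T (fun x hx => (mem_filter.1 (hT x hx).1).1)
        (disjoint_right.2 fun x hx => (hT x hx).2)).trans (card_le_card ?_)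
      intro y hy
      obtain ⟨hy1, hy2⟩ := mem_sdiff.1 hy
      refine mem_filter.2 ⟨hy1, mem_filter.2 ⟨mem_univ _, hy2, ?_⟩⟩
      obtain ⟨x, hx, hy3⟩ := mem_biUnion.1 hy1
      exact fun h => (mem_filter.1 (hT x hx).1).2 ⟨y, hy3, h⟩) (by
      intro y T hT
      simp only [mem_pr, mem_sdiff] at hT
      refine ((hZ₂ y).up T (fun x hx => (hT x hx).1)
        (disjoint_right.2 fun x hx => (hT x hx).2)).trans (card_le_card ?_)
      intro b hb'
      obtain ⟨hy1, hy2⟩ := mem_sdiff.1 hb'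
      refine mem_filter.2 ⟨hy1, mem_filter.2 ⟨mem_univ _, ?_, hy2⟩⟩
      obtain ⟨x, hx, hy3⟩ := mem_biUnion.1 hy1
      exact fun h => (mem_filter.1 (hT x hx).1).2 ⟨b, hy3, h⟩) (by
      intro b x y a hk hc hy hb'
      simp only [mem_pr, mem_sdiff] at hk hc
      refine mem_filter.2 ⟨mem_univ _, ?_, ?_⟩
      · exact fun h => (mem_filter.1 hc.1).2 ⟨b, hb', h⟩
      · exact fun h => (mem_filter.1 hk.1).2 ⟨y, hy, h⟩) (by
      intro b x y a hk hc hy hb'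
      rw [mem_pr] at hk hc
      exact (mem_OO _ _ _ _).2 ⟨⟨b, hb', hk⟩, y, hy, hc⟩)
  rw [card_pr, card_pr] at c3
  have e1 : ∑ b, (L₁ b \ Z₁ b).card + ∑ b, (Z₁ b).card
      + ∑ b, ((K₁ b).filter (fun x => ∃ y ∈ B x, b ∈ (Z₂ y).biUnion B)).card
      = ∑ b, (K₁ b).card := by
    rw [← sum_add_distrib, ← sum_add_distrib]
    refine sum_congr rfl fun b _ => ?_
    rw [card_sdiff_add_card_eq_card (hZL b), add_comm]
    exact card_filter_add_card_filter_not _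
  have e2 : ∑ y, (L₂ y \ Z₂ y).card + ∑ y, (Z₂ y).card
      + ∑ y, ((K₂ y).filter (fun a => ∃ b ∈ B a, y ∈ (Z₁ b).biUnion B)).card
      = ∑ y, (K₂ y).card := by
    rw [← sum_add_distrib, ← sum_add_distrib]
    refine sum_congr rfl fun y _ => ?_
    rw [card_sdiff_add_card_eq_card (hZ₂ y).2.1, add_comm]
    exact card_filter_add_card_filter_not _
  have e3 : M.card + ∑ b, ((Z₁ b).biUnion B).card + ∑ y, ((Z₂ y).biUnion B).card
      ≤ Fintype.card α * Fintype.card α := by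
    rw [← card_pr (fun b => (Z₁ b).biUnion B), ← card_prT (fun b => (Z₂ b).biUnion B),
      ← card_union_of_disjoint, ← card_union_of_disjoint, ← Fintype.card_prod]
    · exact card_le_univ _
    · rw [disjoint_left]
      intro p hp hp'
      rw [mem_prT] at hp'
      rcases mem_union.1 hp with hp | hp
      · exact (mem_filter.1 hp).2.2 hp'
      · rw [mem_pr] at hp
        exact hval _ _ hp hp'
    · rw [disjoint_left]
      intro p hp hp'
      rw [mem_pr] at hp'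
      exact (mem_filter.1 hp).2.1 hp'
  have e4 : (OO B Z₁ K₂).card + (OO B K₁ Z₂).card
      + (OO B (fun b => L₁ b \ Z₁ b) (fun y => L₂ y \ Z₂ y)).card ≤ (OO B K₁ K₂).card := by
    rw [← card_union_of_disjoint, ← card_union_of_disjoint]
    · apply card_le_card
      intro p hp
      simp only [mem_union, mem_OO] at hp ⊢
      rcases hp with (⟨⟨b, h3, h4⟩, h5⟩ | ⟨h3, y, h4, h5⟩) | ⟨⟨b, h3, h4⟩, y, h5, h6⟩
      · exact ⟨⟨b, h3, (hZ₁ b).2.1 h4⟩, h5⟩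
      · exact ⟨h3, y, h4, (mem_filter.1 ((hZ₂ y).2.1 h5)).1⟩
      · exact ⟨⟨b, h3, (mem_filter.1 (mem_sdiff.1 h4).1).1⟩, y, h5,
          (mem_filter.1 (mem_sdiff.1 h6).1).1⟩
    · rw [disjoint_left]
      intro p hp hp'
      simp only [mem_union, mem_OO] at hp hp'
      obtain ⟨⟨b, h3, h4⟩, y, h5, h6⟩ := hp'
      rcases hp with ⟨⟨b', h7, h8⟩, _⟩ | ⟨_, y', h7, h8⟩
      · exact (mem_filter.1 (mem_sdiff.1 h6).1).2 ⟨b', h7, mem_biUnion.2 ⟨_, h8, h5⟩⟩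
      · exact (mem_filter.1 (mem_sdiff.1 h4).1).2 ⟨y', h7, mem_biUnion.2 ⟨_, h8, h3⟩⟩
    · rw [disjoint_left]
      intro p hp hp'
      simp only [mem_OO] at hp hp'
      obtain ⟨⟨b, h3, h4⟩, _⟩ := hp
      obtain ⟨_, y, h5, h6⟩ := hp'
      exact hval b y (mem_biUnion.2 ⟨_, h4, h5⟩) (mem_biUnion.2 ⟨_, h6, h3⟩)
  omega

theorem thmC (B σ₁ σ₂ : α → Finset α)
    (hσ₁ : ∀ a, ∀ b ∈ B a, σ₁ b ⊆ (σ₁ a).biUnion B)
    (hσ₂ : ∀ a, ∀ b ∈ B a, σ₂ b ⊆ (σ₂ a).biUnion B) (hv : Valid B σ₁ σ₂)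
    (hweak : ∀ S : Finset α, ((S.biUnion B).biUnion B).card + S.card ≤ 2 * (S.biUnion B).card)
    (hstrict : ∀ S : Finset α, S.biUnion B ≠ S →
      ((S.biUnion B).biUnion B).card + S.card < 2 * (S.biUnion B).card) :
    ∃ S₁ S₂ : α → Finset α, (∀ b, σ₁ b ⊆ S₁ b) ∧ (∀ y, σ₂ y ⊆ S₂ y) ∧ Valid B S₁ S₂ ∧
      ∀ b, (S₁ b).biUnion B = S₁ b := by
  classical
  obtain ⟨⟨S₁, S₂⟩, hS, hmin⟩ := Finset.exists_min_image
    ((univ : Finset ((α → Finset α) × (α → Finset α))).filter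
      (fun S => (∀ b, σ₁ b ⊆ S.1 b) ∧ (∀ y, σ₂ y ⊆ S.2 y) ∧ Valid B S.1 S.2))
    (fun S => ((∑ b, ((S.1 b).biUnion B).card : ℕ) : ℤ) + (∑ b, ((S.2 b).biUnion B).card : ℕ)
      - (∑ b, (S.1 b).card : ℕ) - (∑ b, (S.2 b).card : ℕ))
    ⟨(σ₁, σ₂), mem_filter.2 ⟨mem_univ _, fun _ => Subset.rfl, fun _ => Subset.rfl, hv⟩⟩
  obtain ⟨hS1, hS2, hSv⟩ := (mem_filter.1 hS).2
  simp only at hS1 hS2 hSv
  refine ⟨S₁, S₂, hS1, hS2, hSv, ?_⟩
  by_contra hne
  push Not at hne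
  obtain ⟨b₀, hb₀⟩ := hne
  let K₁ : α → Finset α := fun b => univ.filter (fun x => b ∉ ((S₂ x).biUnion B).biUnion B)
  let K₂ : α → Finset α := fun y => univ.filter (fun a => y ∉ ((S₁ a).biUnion B).biUnion B)
  have mono : ∀ {S T : Finset α}, S ⊆ T → S.biUnion B ⊆ T.biUnion B :=
    fun h => biUnion_subset_biUnion_of_subset_left _ h
  obtain ⟨Z₁, Z₂, hZ1, hZ2, hZv, hle⟩ := lemQ B σ₁ σ₂ K₁ K₂ (by
    intro b x hx
    refine mem_filter.2 ⟨mem_univ _, fun h => ?_⟩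
    obtain ⟨a, ha1, ha2⟩ := mem_biUnion.1 h
    exact hSv a x (mono (hS1 a) (hσ₁ a b ha2 hx)) ha1) (by
    intro y a ha
    refine mem_filter.2 ⟨mem_univ _, fun h => ?_⟩
    obtain ⟨x, hx1, hx2⟩ := mem_biUnion.1 h
    exact hSv a x hx1 (mono (hS2 x) (hσ₂ x y hx2 ha))) (by
    intro b y hy hb
    obtain ⟨a, ha1, ha2⟩ := mem_biUnion.1 hb
    exact (mem_filter.1 ha1).2 (mono ((hσ₁ a b ha2).trans (mono (hS1 a))) hy)) (by
    intro b y hy hb
    obtain ⟨x, hx1, hx2⟩ := mem_biUnion.1 hy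
    exact (mem_filter.1 hx1).2 (mono ((hσ₂ x y hx2).trans (mono (hS2 x))) hb))
  have hm := hmin (Z₁, Z₂) (mem_filter.2 ⟨mem_univ _, hZ1, hZ2, hZv⟩)
  simp only at hm
  have compl : ∀ R : α → Finset α, ∑ b, (univ.filter (fun x => b ∉ R x)).card + ∑ x, (R x).card
      = Fintype.card α * Fintype.card α := by
    intro R
    rw [← card_pr, ← card_prT R, ← card_union_of_disjoint, ← Fintype.card_prod, ← card_univ]
    · congr 1
      ext p
      simp only [mem_union, mem_pr, mem_prT, mem_filter, mem_univ, true_and, iff_true]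
      exact (em _).symm
    · rw [disjoint_left]
      intro p hp hp'
      rw [mem_pr] at hp
      rw [mem_prT] at hp'
      exact (mem_filter.1 hp).2 hp'
  have k1 := compl (fun x => ((S₂ x).biUnion B).biUnion B)
  have k2 := compl (fun x => ((S₁ x).biUnion B).biUnion B)
  have k3 : (OO B K₁ K₂).card + ∑ b, ((S₁ b).biUnion B).card + ∑ y, ((S₂ y).biUnion B).card
      ≤ Fintype.card α * Fintype.card α := by
    rw [← card_pr (fun b => (S₁ b).biUnion B), ← card_prT (fun b => (S₂ b).biUnion B),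
      ← card_union_of_disjoint, ← card_union_of_disjoint, ← Fintype.card_prod]
    · exact card_le_univ _
    · rw [disjoint_left]
      intro p hp hp'
      rw [mem_prT] at hp'
      rcases mem_union.1 hp with hp | hp
      · obtain ⟨⟨b, h3, h4⟩, _⟩ := (mem_OO _ _ _ _).1 hp
        exact (mem_filter.1 h4).2 (mem_biUnion.2 ⟨_, hp', h3⟩)
      · rw [mem_pr] at hp
        exact hSv _ _ hp hp'
    · rw [disjoint_left]
      intro p hp hp'
      rw [mem_pr] at hp'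
      obtain ⟨_, y, h3, h4⟩ := (mem_OO _ _ _ _).1 hp
      exact (mem_filter.1 h4).2 (mem_biUnion.2 ⟨_, hp', h3⟩)
  have k4 : ∑ b, (((S₁ b).biUnion B).biUnion B).card + ∑ b, (S₁ b).card
      < 2 * ∑ b, ((S₁ b).biUnion B).card := by
    rw [← sum_add_distrib, mul_sum]
    exact sum_lt_sum (fun b _ => hweak _) ⟨b₀, mem_univ _, hstrict _ hb₀⟩
  have k5 : ∑ b, (((S₂ b).biUnion B).biUnion B).card + ∑ b, (S₂ b).card
      ≤ 2 * ∑ b, ((S₂ b).biUnion B).card := by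
    rw [← sum_add_distrib, mul_sum]
    exact sum_le_sum (fun b _ => hweak _)
  simp only [K₁, K₂] at hle k3
  omega

end Vale.Agent.P038.H16
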