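import Vale.Agent.P038.helper16.Core

/-! The set inequality in an arc-minimal counterexample and the conclusion. -/

namespace Vale.Agent.P038.H16

open Finset

variable {V : Type*} [Fintype V] [DecidableEq V]

def N2 (A : V → Finset V) (v : V) : Finset V := (A v).biUnion A \ insert v (A v)

lemma setIneq (A : V → Finset V) (hasym : ∀ u v, v ∈ A u → u ∉ A v)
    (hbad : ∀ v, (N2 A v).card < (A v).card)
    (hmin : ∀ A' : V → Finset V, (∀ v, A' v ⊆ A v) → ∑ v, (A' v).card < ∑ v, (A v).card →
      ∃ v, (A' v).card ≤ (N2 A' v).card)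
    (S : Finset V) (hS : ¬ S.biUnion A ⊆ S) :
    ((S.biUnion A).biUnion A \ S.biUnion A).card < (S.biUnion A \ S).card := by
  by_contra hcon
  push Not at hcon
  set T := S.biUnion A with hT
  let G : Finset V → Finset V := fun X => X ∪ (X \ S).biUnion A
  have hex : ∃ T' ⊆ T, T' ≠ T ∧ ∀ X ⊆ T, (G T').card + 2 * X.card ≤ (G X).card + 2 * T'.card := by
    obtain ⟨T', hT', hm⟩ := Finset.exists_min_image T.powerset
      (fun X => ((G X).card : ℤ) - 2 * X.card) ⟨∅, by simp⟩
    simp only [mem_powerset] at hT' hm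
    by_cases h : T' = T
    · refine ⟨T ∩ S, inter_subset_left, fun h' => hS (h' ▸ inter_subset_right), fun X hX => ?_⟩
      have h1 := hm X hX
      rw [h] at h1
      have h2 : G (T ∩ S) = T ∩ S := by
        have : (T ∩ S) \ S = ∅ := by
          ext x
          simp only [mem_sdiff, mem_inter, notMem_empty, iff_false, not_and, not_not]
          exact fun h => h.2
        simp only [G, this, biUnion_empty, union_empty]
      have h3 : T.biUnion A \ T ∪ T ⊆ G T := by
        intro w hw
        rcases mem_union.1 hw with hw | hw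
        · obtain ⟨hw1, hw2⟩ := mem_sdiff.1 hw
          obtain ⟨u, hu, hw3⟩ := mem_biUnion.1 hw1
          refine mem_union_right _ (mem_biUnion.2 ⟨u, mem_sdiff.2 ⟨hu, fun huS => hw2 ?_⟩, hw3⟩)
          exact mem_biUnion.2 ⟨u, huS, hw3⟩
        · exact mem_union_left _ hw
      have h4 := card_le_card h3
      rw [card_union_of_disjoint sdiff_disjoint] at h4
      have h5 := card_sdiff_add_card_inter T S
      rw [h2]
      omega
    · refine ⟨T', hT', h, fun X hX => ?_⟩
      have := hm X hX
      omega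
  obtain ⟨T', hT'T, hne, hm⟩ := hex
  let A' : V → Finset V := fun u => if u ∈ S then A u ∩ T' else A u
  have hsub : ∀ u, A' u ⊆ A u := by
    intro u
    simp only [A']
    split_ifs
    · exact inter_subset_left
    · exact Subset.rfl
  have hlt : ∑ v, (A' v).card < ∑ v, (A v).card := by
    obtain ⟨w, hw1, hw2⟩ := exists_of_ssubset (hT'T.ssubset_of_ne hne)
    obtain ⟨u, hu, hw3⟩ := mem_biUnion.1 hw1
    refine sum_lt_sum (fun v _ => card_le_card (hsub v)) ⟨u, mem_univ _, card_lt_card ?_⟩
    refine (hsub u).ssubset_of_ne fun h => hw2 ?_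
    rw [← h] at hw3
    simp only [A', if_pos hu] at hw3
    exact (mem_inter.1 hw3).2
  obtain ⟨v, hv⟩ := hmin A' hsub hlt
  have hb := hbad v
  by_cases hvS : v ∈ S
  · have hA'v : A' v = A v ∩ T' := by simp only [A', if_pos hvS]
    set Q := A v \ T' with hQ
    have hAvT : A v ⊆ T := fun w hw => mem_biUnion.2 ⟨v, hvS, hw⟩
    have h1 := hm (T' ∪ Q) (union_subset hT'T (sdiff_subset.trans hAvT))
    rw [card_union_of_disjoint (disjoint_sdiff : Disjoint T' Q)] at h1
    set E := G (T' ∪ Q) \ G T' with hE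
    have h2 : (G (T' ∪ Q)).card ≤ E.card + (G T').card := by
      rw [hE, card_sdiff_add_card]
      exact card_le_card subset_union_left
    have hN : N2 A' v ⊆ G T' := by
      intro w hw
      obtain ⟨u, hu, hw1⟩ := mem_biUnion.1 (mem_sdiff.1 hw).1
      rw [hA'v] at hu
      by_cases huS : u ∈ S
      · simp only [A', if_pos huS] at hw1
        exact mem_union_left _ (mem_inter.1 hw1).2
      · simp only [A', if_neg huS] at hw1
        exact mem_union_right _ (mem_biUnion.2 ⟨u, mem_sdiff.2 ⟨(mem_inter.1 hu).2, huS⟩, hw1⟩)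
    have hd : Disjoint (N2 A' v) E := disjoint_left.2 fun w hw hw' => (mem_sdiff.1 hw').2 (hN hw)
    have h3 : N2 A' v ∪ E ⊆ N2 A v ∪ Q := by
      intro w hw
      by_cases hwQ : w ∈ Q
      · exact mem_union_right _ hwQ
      refine mem_union_left _ ?_
      rcases mem_union.1 hw with hw | hw
      · obtain ⟨hw1, hw2⟩ := mem_sdiff.1 hw
        obtain ⟨u, hu, hw3⟩ := mem_biUnion.1 hw1
        refine mem_sdiff.2 ⟨mem_biUnion.2 ⟨u, hsub v hu, hsub u hw3⟩, fun h => hw2 ?_⟩
        rcases mem_insert.1 h with h | h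
        · exact mem_insert.2 (Or.inl h)
        · refine mem_insert_of_mem ?_
          rw [hA'v]
          refine mem_inter.2 ⟨h, ?_⟩
          by_contra h'
          exact hwQ (mem_sdiff.2 ⟨h, h'⟩)
      · obtain ⟨hw1, hw2⟩ := mem_sdiff.1 hw
        have hwT' : w ∉ T' := fun h => hw2 (mem_union_left _ h)
        rcases mem_union.1 hw1 with hw1 | hw1
        · rcases mem_union.1 hw1 with h | h
          · exact absurd h hwT'
          · exact absurd h hwQ
        · obtain ⟨u, hu, hw3⟩ := mem_biUnion.1 hw1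
          obtain ⟨hu1, hu2⟩ := mem_sdiff.1 hu
          rcases mem_union.1 hu1 with h | h
          · exact absurd (mem_union_right _
              (mem_biUnion.2 ⟨u, mem_sdiff.2 ⟨h, hu2⟩, hw3⟩)) hw2
          · have huv : u ∈ A v := (mem_sdiff.1 h).1
            refine mem_sdiff.2 ⟨mem_biUnion.2 ⟨u, huv, hw3⟩, fun h' => ?_⟩
            rcases mem_insert.1 h' with h' | h'
            · exact hasym v u huv (h' ▸ hw3)
            · exact hwQ (mem_sdiff.2 ⟨h', hwT'⟩)
    have h4 := (card_le_card h3).trans (card_union_le _ _)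
    rw [card_union_of_disjoint hd] at h4
    have h5 := card_sdiff_add_card_inter (A v) T'
    rw [hA'v] at hv
    rw [← hQ] at h5
    change _ + 2 * (T'.card + Q.card) ≤ _ at h1
    omega
  · have hA'v : A' v = A v := by simp only [A', if_neg hvS]
    have hN : N2 A' v ⊆ N2 A v := by
      intro w hw
      obtain ⟨hw1, hw2⟩ := mem_sdiff.1 hw
      obtain ⟨u, hu, hw3⟩ := mem_biUnion.1 hw1
      rw [hA'v] at hw2
      exact mem_sdiff.2 ⟨mem_biUnion.2 ⟨u, hsub v hu, hsub u hw3⟩, hw2⟩
    have := card_le_card hN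
    rw [hA'v] at hv
    omega

def blow (A : V → Finset V) (p : V × Bool) : Finset (V × Bool) := insert p (A p.1 ×ˢ univ)

omit [Fintype V] in
lemma biUnion_blow (A : V → Finset V) (S : Finset (V × Bool)) :
    S.biUnion (blow A) = S ∪ ((S.image Prod.fst).biUnion A) ×ˢ univ := by
  ext p
  simp only [blow, mem_biUnion, mem_insert, mem_product, mem_univ, and_true, mem_union, mem_image]
  constructor
  · rintro ⟨q, hq, rfl | h⟩
    · exact Or.inl hq
    · exact Or.inr ⟨q.1, ⟨q, hq, rfl⟩, h⟩
  · rintro (h | ⟨u, ⟨q, hq, rfl⟩, h⟩)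
    · exact ⟨p, h, Or.inl rfl⟩
    · exact ⟨q, hq, Or.inr h⟩

omit [Fintype V] in
lemma blow_ineq (A : V → Finset V) (S : Finset (V × Bool)) :
    ((S.biUnion (blow A)).biUnion (blow A)).card ≤ (S.biUnion (blow A)).card +
      2 * (((S.image Prod.fst).biUnion A).biUnion A \ (S.image Prod.fst).biUnion A).card ∧
    S.card + 2 * ((S.image Prod.fst).biUnion A \ S.image Prod.fst).card
      ≤ (S.biUnion (blow A)).card := by
  set U := S.image Prod.fst with hU
  constructor
  · have h1 : (S.biUnion (blow A)).biUnion (blow A) ⊆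
        S.biUnion (blow A) ∪ ((U.biUnion A).biUnion A \ U.biUnion A) ×ˢ univ := by
      intro p hp
      obtain ⟨q, hq, hp⟩ := mem_biUnion.1 hp
      rcases mem_insert.1 hp with rfl | hp
      · exact mem_union_left _ hq
      have hp1 := (mem_product.1 hp).1
      by_cases h2 : p.1 ∈ U.biUnion A
      · refine mem_union_left _ ?_
        rw [biUnion_blow]
        exact mem_union_right _ (mem_product.2 ⟨h2, mem_univ _⟩)
      · refine mem_union_right _ (mem_product.2 ⟨mem_sdiff.2 ⟨?_, h2⟩, mem_univ _⟩)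
        rw [biUnion_blow] at hq
        rcases mem_union.1 hq with hq | hq
        · exact absurd (mem_biUnion.2 ⟨q.1, mem_image_of_mem _ hq, hp1⟩) h2
        · exact mem_biUnion.2 ⟨q.1, (mem_product.1 hq).1, hp1⟩
    have h2 := (card_le_card h1).trans (card_union_le _ _)
    rw [card_product, card_univ, Fintype.card_bool] at h2
    omega
  · have h1 : S ∪ (U.biUnion A \ U) ×ˢ univ ⊆ S.biUnion (blow A) := by
      rw [biUnion_blow]
      exact union_subset_union Subset.rfl (product_subset_product_left sdiff_subset)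
    have h2 := card_le_card h1
    rw [card_union_of_disjoint, card_product, card_univ, Fintype.card_bool] at h2
    · omega
    · rw [disjoint_left]
      intro p hp hp'
      exact (mem_sdiff.1 (mem_product.1 hp').1).2 (mem_image_of_mem _ hp)

theorem main [Nonempty V] (n : ℕ) : ∀ A : V → Finset V, ∑ v, (A v).card = n →
    (∀ u v, v ∈ A u → u ∉ A v) → ∃ v, (A v).card ≤ (N2 A v).card := by
  induction n using Nat.strong_induction_on with
  | _ n ih =>
  intro A hn hasym
  by_contra hbad
  push Not at hbad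
  have hset := setIneq A hasym hbad (fun A' hA' hlt => ih _ (hn ▸ hlt) A' rfl
    (fun u v h1 h2 => hasym u v (hA' u h1) (hA' v h2)))
  have hsubN : ∀ S : Finset (V × Bool), S ⊆ S.biUnion (blow A) :=
    fun S p hp => mem_biUnion.2 ⟨p, hp, mem_insert_self _ _⟩
  have hkey : ∀ S : Finset (V × Bool),
      ((S.biUnion (blow A)).biUnion (blow A)).card + S.card < 2 * (S.biUnion (blow A)).card ∨
      ((S.biUnion (blow A)).biUnion (blow A)).card ≤ (S.biUnion (blow A)).card := by
    intro S
    obtain ⟨h1, h2⟩ := blow_ineq A S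
    by_cases h : (S.image Prod.fst).biUnion A ⊆ S.image Prod.fst
    · right
      have h3 : ((S.image Prod.fst).biUnion A).biUnion A \ (S.image Prod.fst).biUnion A = ∅ :=
        sdiff_eq_empty_iff_subset.2 (biUnion_subset_biUnion_of_subset_left _ h)
      rw [h3] at h1
      simpa using h1
    · left
      have := hset _ h
      omega
  obtain ⟨S₁, S₂, h1, h2, hv, hc⟩ := thmC (blow A) (fun p => {p}) (fun p => {(p.1, !p.2)}) (by
    intro a b hb
    simpa using hb) (by
    intro a b hb
    simp only [singleton_biUnion, singleton_subset_iff]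
    rcases mem_insert.1 hb with rfl | hb
    · exact mem_insert_self _ _
    · exact mem_insert_of_mem (mem_product.2 ⟨(mem_product.1 hb).1, mem_univ _⟩)) (by
    intro b y hy hb
    simp only [singleton_biUnion] at hy hb
    rcases mem_insert.1 hy with rfl | hy
    · rcases mem_insert.1 hb with hb | hb
      · have := congrArg Prod.snd hb
        simp at this
      · exact hasym _ _ (mem_product.1 hb).1 (mem_product.1 hb).1
    · rcases mem_insert.1 hb with rfl | hb
      · exact hasym _ _ (mem_product.1 hy).1 (mem_product.1 hy).1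
      · exact hasym _ _ (mem_product.1 hy).1 (mem_product.1 hb).1) (by
    intro S
    have := card_le_card (hsubN S)
    rcases hkey S with h | h <;> omega) (by
    intro S hS
    have := card_lt_card ((hsubN S).ssubset_of_ne hS.symm)
    rcases hkey S with h | h <;> omega)
  obtain ⟨U, hU, hUmin⟩ := Finset.exists_min_image
    ((univ : Finset (Finset (V × Bool))).filter (fun U => U.Nonempty ∧ ∀ p ∈ U, blow A p ⊆ U))
    card ⟨univ, mem_filter.2 ⟨mem_univ _, univ_nonempty, fun _ _ => subset_univ _⟩⟩
  obtain ⟨⟨p, hp⟩, hUc⟩ := (mem_filter.1 hU).2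
  have hUeq : ∀ U' ⊆ U, U'.Nonempty → (∀ p ∈ U', blow A p ⊆ U') → U' = U :=
    fun U' h3 h4 h5 => eq_of_subset_of_card_le h3 (hUmin U' (mem_filter.2 ⟨mem_univ _, h4, h5⟩))
  have h3 : U ∩ S₁ p = U := by
    refine hUeq _ inter_subset_left ⟨p, mem_inter.2 ⟨hp, h1 p (mem_singleton_self _)⟩⟩ ?_
    intro q hq
    refine subset_inter (hUc q (mem_inter.1 hq).1) ?_
    rw [← hc p]
    exact subset_biUnion_of_mem _ (mem_inter.1 hq).2
  have h4 : ((U.image Prod.fst).biUnion A) ×ˢ (univ : Finset Bool) = U := by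
    have hsub : ((U.image Prod.fst).biUnion A) ×ˢ (univ : Finset Bool) ⊆ U := by
      intro q hq
      obtain ⟨u, hu, hq'⟩ := mem_biUnion.1 (mem_product.1 hq).1
      obtain ⟨r, hr, rfl⟩ := mem_image.1 hu
      exact hUc r hr (mem_insert_of_mem (mem_product.2 ⟨hq', mem_univ _⟩))
    refine hUeq _ hsub ?_ ?_
    · obtain ⟨w, hw⟩ : (A p.1).Nonempty := card_pos.1 (lt_of_le_of_lt (Nat.zero_le _) (hbad p.1))
      exact ⟨(w, true), mem_product.2 ⟨mem_biUnion.2 ⟨p.1, mem_image_of_mem _ hp, hw⟩, mem_univ _⟩⟩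
    · intro q hq r hr
      rcases mem_insert.1 hr with rfl | hr
      · exact hq
      · exact mem_product.2 ⟨mem_biUnion.2 ⟨q.1, mem_image_of_mem _ (hsub hq),
          (mem_product.1 hr).1⟩, mem_univ _⟩
  have h5 : (p.1, !p.2) ∈ U := by
    rw [← h4] at hp ⊢
    exact mem_product.2 ⟨(mem_product.1 hp).1, mem_univ _⟩
  have h6 : (p.1, !p.2) ∈ S₁ p := by
    rw [← h3] at h5
    exact (mem_inter.1 h5).2
  refine hv p (p.1, !p.2) (hsubN _ h6) (hsubN _ (h2 _ ?_))
  simp

end Vale.Agent.P038.H16
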