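import Mathlib

/-! A Sylvester-type counting lemma obtained from a generic matrix. -/

namespace Vale.Agent.P038.H16

open Finset

variable {α : Type*} [Fintype α] [DecidableEq α]

abbrev KK (α : Type*) := FractionRing (MvPolynomial (α × α) ℚ)

noncomputable def gen (B : α → Finset α) (x y : α) : KK α :=
  if y ∈ B x then algebraMap (MvPolynomial (α × α) ℚ) (KK α) (MvPolynomial.X (x, y)) else 0

omit [Fintype α] in
lemma generic (B : α → Finset α) (S : Finset α) (p : α → Prop) [DecidablePred p]
    (hall : ∀ T ⊆ S, T.card ≤ ((T.biUnion B).filter p).card)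
    (c : α → KK α) (h : ∀ y, p y → ∑ x ∈ S, c x * gen B x y = 0) : ∀ x ∈ S, c x = 0 := by
  classical
  obtain ⟨m, hm, hmB⟩ := (Finset.all_card_le_biUnion_card_iff_exists_injective
      (fun x : S => (B x).filter p)).1 (by
    intro s
    have h1 := hall (s.map (Function.Embedding.subtype _)) (by
      intro x hx
      obtain ⟨y, _, rfl⟩ := Finset.mem_map.1 hx
      exact y.2)
    rw [Finset.card_map] at h1
    refine h1.trans (Finset.card_le_card ?_)
    intro y hy
    simp only [Finset.mem_filter, Finset.mem_biUnion, Finset.mem_map] at hy ⊢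
    obtain ⟨⟨x, ⟨z, hz, rfl⟩, hx⟩, hp⟩ := hy
    exact ⟨z, hz, hx, hp⟩)
  let A0 : Matrix S S (MvPolynomial (α × α) ℚ) :=
    Matrix.of fun x x' => if m x' ∈ B x then MvPolynomial.X ((x : α), m x') else 0
  have hdet : A0.det ≠ 0 := by
    intro h0
    let e : α × α → ℚ := fun q => if ∃ x : S, (x : α) = q.1 ∧ m x = q.2 then 1 else 0
    have h1 := congrArg (MvPolynomial.eval e) h0
    rw [RingHom.map_det, map_zero] at h1
    have h2 : (MvPolynomial.eval e).mapMatrix A0 = 1 := by
      ext x x'
      by_cases hx : x = x'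
      · subst hx
        have := (Finset.mem_filter.1 (hmB x)).1
        simp [A0, this, e]
      · have h3 : ¬ ∃ z : S, (z : α) = x ∧ m z = m x' := by
          rintro ⟨z, hz, hz'⟩
          exact hx ((Subtype.ext hz).symm.trans (hm hz'))
        rw [Matrix.one_apply_ne hx]
        simp only [A0, RingHom.mapMatrix_apply, Matrix.map_apply, Matrix.of_apply]
        split_ifs with h4
        · simp only [MvPolynomial.eval_X, e]
          rw [if_neg h3]
        · simp
    rw [h2] at h1
    simp at h1
  let A1 : Matrix S S (KK α) := (algebraMap (MvPolynomial (α × α) ℚ) (KK α)).mapMatrix A0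
  have hdet1 : A1.det ≠ 0 := by
    rw [← RingHom.map_det]
    intro h0
    exact hdet ((map_eq_zero_iff _ (IsFractionRing.injective _ _)).1 h0)
  have h5 : Matrix.vecMul (fun x : S => c x) A1 = 0 := by
    ext x'
    have h6 := h (m x') (Finset.mem_filter.1 (hmB x')).2
    rw [← Finset.sum_coe_sort S] at h6
    simp only [Matrix.vecMul, dotProduct, Pi.zero_apply]
    rw [← h6]
    refine Finset.sum_congr rfl fun x _ => ?_
    simp only [A1, A0, gen, RingHom.mapMatrix_apply, Matrix.map_apply, Matrix.of_apply]
    split_ifs <;> simp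
  have h7 := Matrix.eq_zero_of_vecMul_eq_zero hdet1 h5
  intro x hx
  exact congrFun h7 ⟨x, hx⟩

lemma indep (B : α → Finset α) (K M : Finset (α × α))
    (hK : ∀ b, ∀ T : Finset α, (∀ x ∈ T, (b, x) ∈ K) →
      T.card ≤ ((T.biUnion B).filter (fun y => (b, y) ∈ M)).card)
    (u : K → KK α)
    (hu : ∀ w ∈ M, ∑ k : K, u k * (if w.1 = k.1.1 then gen B k.1.2 w.2 else 0) = 0) :
    u = 0 := by
  classical
  ext ⟨⟨b, x⟩, hk⟩
  let c : α → KK α := fun x => if h : (b, x) ∈ K then u ⟨(b, x), h⟩ else 0
  have := generic B (univ.filter (fun x => (b, x) ∈ K)) (fun y => (b, y) ∈ M)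
    (fun T hT => hK b T (fun x hx => (Finset.mem_filter.1 (hT hx)).2)) c (by
      intro y hy
      rw [← hu (b, y) hy]
      symm
      rw [← Finset.sum_filter_add_sum_filter_not univ (fun k : K => b = k.1.1)]
      have h0 : ∑ k ∈ univ.filter (fun k : K => ¬ b = k.1.1),
          u k * (if (b, y).1 = k.1.1 then gen B k.1.2 (b, y).2 else 0) = 0 := by
        refine Finset.sum_eq_zero fun k hk => ?_
        have := (Finset.mem_filter.1 hk).2
        simp [this]
      rw [h0, add_zero]
      refine Finset.sum_bij (fun k _ => k.1.2) ?_ ?_ ?_ ?_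
      · rintro ⟨⟨b', x'⟩, hk'⟩ hk
        have := (Finset.mem_filter.1 hk).2
        simp only at this
        subst this
        simpa using hk'
      · rintro ⟨⟨b1, x1⟩, h1⟩ hk1 ⟨⟨b2, x2⟩, h2⟩ hk2 h3
        have e1 := (Finset.mem_filter.1 hk1).2
        have e2 := (Finset.mem_filter.1 hk2).2
        simp only at e1 e2 h3
        subst e1 e2 h3
        rfl
      · intro x' hx'
        exact ⟨⟨(b, x'), (Finset.mem_filter.1 hx').2⟩, by simp, rfl⟩
      · rintro ⟨⟨b', x'⟩, hk'⟩ hk
        have := (Finset.mem_filter.1 hk).2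
        simp only at this
        subst this
        simp [c, hk']) x (by simpa using hk)
  simpa [c, hk] using this

lemma sylv (B : α → Finset α) (K C M O : Finset (α × α))
    (hK : ∀ b, ∀ T : Finset α, (∀ x ∈ T, (b, x) ∈ K) →
      T.card ≤ ((T.biUnion B).filter (fun y => (b, y) ∈ M)).card)
    (hC : ∀ y, ∀ T : Finset α, (∀ a ∈ T, (y, a) ∈ C) →
      T.card ≤ ((T.biUnion B).filter (fun b => (b, y) ∈ M)).card)
    (hM : ∀ b x y a, (b, x) ∈ K → (y, a) ∈ C → y ∈ B x → b ∈ B a → (b, y) ∈ M)
    (hO : ∀ b x y a, (b, x) ∈ K → (y, a) ∈ C → y ∈ B x → b ∈ B a → (a, x) ∈ O) :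
    K.card + C.card ≤ M.card + O.card := by
  classical
  let P : Matrix K (M ⊕ O) (KK α) := Matrix.of fun k w =>
    match w with
    | Sum.inl w => if w.1.1 = k.1.1 then gen B k.1.2 w.1.2 else 0
    | Sum.inr o => if o.1.2 = k.1.2 then gen B o.1.1 k.1.1 else 0
  let Q : Matrix (M ⊕ O) C (KK α) := Matrix.of fun w c =>
    match w with
    | Sum.inl w => if w.1.2 = c.1.1 then gen B c.1.2 w.1.1 else 0
    | Sum.inr o => - if o.1.1 = c.1.2 then gen B o.1.2 c.1.1 else 0
  have hPQ : P * Q = 0 := by
    ext ⟨⟨b, x⟩, hk⟩ ⟨⟨y, a⟩, hc⟩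
    simp only [Matrix.mul_apply, Fintype.sum_sum_type, P, Q, Matrix.of_apply, Matrix.zero_apply]
    have h1 : ∑ w : M, (if w.1.1 = b then gen B x w.1.2 else 0) *
        (if w.1.2 = y then gen B a w.1.1 else 0) = gen B x y * gen B a b := by
      rw [Finset.sum_coe_sort M (fun w => (if w.1 = b then gen B x w.2 else 0) *
        (if w.2 = y then gen B a w.1 else 0))]
      rw [Finset.sum_eq_single (b, y)]
      · simp
      · rintro ⟨b', y'⟩ _ hne
        by_cases h1 : b' = b
        · by_cases h2 : y' = y
          · exact absurd (by rw [h1, h2]) hne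
          · simp [h2]
        · simp [h1]
      · intro hn
        by_cases h1 : y ∈ B x
        · by_cases h2 : b ∈ B a
          · exact absurd (hM b x y a hk hc h1 h2) hn
          · simp [gen, h2]
        · simp [gen, h1]
    have h2 : ∑ o : O, (if o.1.2 = x then gen B o.1.1 b else 0) *
        (- if o.1.1 = a then gen B o.1.2 y else 0) = - (gen B x y * gen B a b) := by
      rw [Finset.sum_coe_sort O (fun o => (if o.2 = x then gen B o.1 b else 0) *
        (- if o.1 = a then gen B o.2 y else 0))]
      rw [Finset.sum_eq_single (a, x)]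
      · simp [mul_comm]
      · rintro ⟨a', x'⟩ _ hne
        by_cases h1 : a' = a
        · by_cases h2 : x' = x
          · exact absurd (by rw [h1, h2]) hne
          · simp [h2]
        · simp [h1]
      · intro hn
        by_cases h1 : y ∈ B x
        · by_cases h2 : b ∈ B a
          · exact absurd (hO b x y a hk hc h1 h2) hn
          · simp [gen, h2]
        · simp [gen, h1]
    rw [h1, h2, add_neg_cancel]
  have hr := Matrix.rank_add_rank_le_card_of_mul_eq_zero hPQ
  have hP : P.rank = Fintype.card K := by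
    apply LinearIndependent.rank_matrix
    rw [Fintype.linearIndependent_iff]
    intro u hu
    have := indep B K M hK u (by
      intro w hw
      have := congrFun hu (Sum.inl ⟨w, hw⟩)
      simpa [P, Finset.sum_apply, Matrix.row] using this)
    intro i
    exact congrFun this i
  have hQ : Q.rank = Fintype.card C := by
    rw [← Matrix.rank_transpose]
    apply LinearIndependent.rank_matrix
    rw [Fintype.linearIndependent_iff]
    intro u hu
    have := indep B C (M.map (Equiv.prodComm α α).toEmbedding) (by
      intro y T hT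
      have := hC y T hT
      refine this.trans (le_of_eq ?_)
      congr 1
      ext b
      simp) u (by
      intro w hw
      have hw' : (w.2, w.1) ∈ M := by
        obtain ⟨z, hz, rfl⟩ := Finset.mem_map.1 hw
        simpa using hz
      have := congrFun hu (Sum.inl ⟨(w.2, w.1), hw'⟩)
      simpa [Q, Finset.sum_apply, Matrix.row] using this)
    intro i
    exact congrFun this i
  rw [hP, hQ] at hr
  simpa using hr

end Vale.Agent.P038.H16
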